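import Mathlib

namespace Vale.Agent.Results.P038.LocalSink

open Finset

/-- An oriented graph is a relation `adj` on a finite type with no loops and no opposite arcs.
`N1 v` is the out-neighbourhood, `N2 v` the set of vertices at directed distance exactly two.

* (1) if `v` has minimum out-degree and some out-neighbour `u` of `v` has no out-neighbour inside
  the out-neighbourhood of `v`, then `|N1 v| ≤ |N2 v|`;
* (2) hence the conjecture holds for every oriented graph in which every nonempty out-neighbourhood
  contains such a local sink;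
* (3) in particular for oriented graphs without transitive triangles. -/
theorem result :
    (∀ (V : Type) [Fintype V] [DecidableEq V] (adj : V → V → Prop) [DecidableRel adj],
      (∀ u v, adj u v → ¬ adj v u) →
      ∀ v u : V, (∀ w, (univ.filter (fun x => adj v x)).card ≤ (univ.filter (fun x => adj w x)).card) →
        adj v u → (∀ w, adj u w → ¬ adj v w) →
        (univ.filter (fun x => adj v x)).card
          ≤ (univ.filter (fun w => w ≠ v ∧ ¬ adj v w ∧ ∃ y, adj v y ∧ adj y w)).card) ∧
    (∀ (V : Type) [Fintype V] [DecidableEq V] [Nonempty V] (adj : V → V → Prop) [DecidableRel adj],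
      (∀ u v, adj u v → ¬ adj v u) →
      (∀ v y : V, adj v y → ∃ u, adj v u ∧ ∀ w, adj u w → ¬ adj v w) →
      ∃ v : V, (univ.filter (fun x => adj v x)).card
          ≤ (univ.filter (fun w => w ≠ v ∧ ¬ adj v w ∧ ∃ y, adj v y ∧ adj y w)).card) ∧
    (∀ (V : Type) [Fintype V] [DecidableEq V] [Nonempty V] (adj : V → V → Prop) [DecidableRel adj],
      (∀ u v, adj u v → ¬ adj v u) →
      (∀ v u w : V, adj v u → adj u w → ¬ adj v w) →
      ∃ v : V, (univ.filter (fun x => adj v x)).card
          ≤ (univ.filter (fun w => w ≠ v ∧ ¬ adj v w ∧ ∃ y, adj v y ∧ adj y w)).card) := by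
  have part1 : ∀ (V : Type) [Fintype V] [DecidableEq V] (adj : V → V → Prop) [DecidableRel adj],
      (∀ u v, adj u v → ¬ adj v u) →
      ∀ v u : V, (∀ w, (univ.filter (fun x => adj v x)).card ≤ (univ.filter (fun x => adj w x)).card) →
        adj v u → (∀ w, adj u w → ¬ adj v w) →
        (univ.filter (fun x => adj v x)).card
          ≤ (univ.filter (fun w => w ≠ v ∧ ¬ adj v w ∧ ∃ y, adj v y ∧ adj y w)).card := by
    intro V _ _ adj _ hasym v u hmin hvu hsink
    refine le_trans (hmin u) (Finset.card_le_card ?_)
    intro w hw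
    simp only [Finset.mem_filter, Finset.mem_univ, true_and] at hw ⊢
    refine ⟨?_, hsink w hw, u, hvu, hw⟩
    rintro rfl
    exact hasym _ _ hvu hw
  have part2 : ∀ (V : Type) [Fintype V] [DecidableEq V] [Nonempty V] (adj : V → V → Prop)
      [DecidableRel adj],
      (∀ u v, adj u v → ¬ adj v u) →
      (∀ v y : V, adj v y → ∃ u, adj v u ∧ ∀ w, adj u w → ¬ adj v w) →
      ∃ v : V, (univ.filter (fun x => adj v x)).card
          ≤ (univ.filter (fun w => w ≠ v ∧ ¬ adj v w ∧ ∃ y, adj v y ∧ adj y w)).card := by
    intro V _ _ _ adj _ hasym hloc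
    obtain ⟨v, _, hv⟩ := Finset.exists_min_image (Finset.univ : Finset V)
      (fun v => (univ.filter (fun x => adj v x)).card) Finset.univ_nonempty
    refine ⟨v, ?_⟩
    by_cases hne : ∃ y, adj v y
    · obtain ⟨y, hy⟩ := hne
      obtain ⟨u, hvu, hsink⟩ := hloc v y hy
      exact part1 V adj hasym v u (fun w => hv w (Finset.mem_univ w)) hvu hsink
    · push Not at hne
      have : (univ.filter (fun x => adj v x)).card = 0 := by
        rw [Finset.card_eq_zero, Finset.filter_eq_empty_iff]
        intro x _
        exact hne x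
      rw [this]
      exact Nat.zero_le _
  refine ⟨part1, part2, ?_⟩
  intro V _ _ _ adj _ hasym htri
  exact part2 V adj hasym (fun v y hy => ⟨y, hy, fun w hw => htri v y w hy hw⟩)

end Vale.Agent.Results.P038.LocalSink
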