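import Mathlib

namespace Vale.Agent.Results.P038.LocalSinkQuant

open Finset

/-- An oriented graph is a relation `adj` on a finite type with no opposite arcs (hence no loops).
If `v` has minimum out-degree and `u` is an out-neighbour of `v`, then the second out-neighbourhood
of `v` has at least `|N1 v| - |N1 u ∩ N1 v|` vertices. -/
theorem result :
    ∀ (V : Type) [Fintype V] [DecidableEq V] (adj : V → V → Prop) [DecidableRel adj],
      (∀ u v, adj u v → ¬ adj v u) →
      ∀ v u : V, (∀ w, (univ.filter (fun x => adj v x)).card ≤ (univ.filter (fun x => adj w x)).card) →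
        adj v u →
        (univ.filter (fun x => adj v x)).card
          ≤ (univ.filter (fun w => w ≠ v ∧ ¬ adj v w ∧ ∃ y, adj v y ∧ adj y w)).card
            + (univ.filter (fun x => adj u x ∧ adj v x)).card := by
  intro V _ _ adj _ hasym v u hmin hvu
  refine le_trans (hmin u) ?_
  refine le_trans (Finset.card_le_card ?_) (Finset.card_union_le _ _)
  intro w hw
  simp only [Finset.mem_filter, Finset.mem_univ, true_and, Finset.mem_union] at hw ⊢
  by_cases h : adj v w
  · exact Or.inr ⟨hw, h⟩
  · refine Or.inl ⟨?_, h, u, hvu, hw⟩
    rintro rfl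
    exact hasym _ _ hvu hw

end Vale.Agent.Results.P038.LocalSinkQuant
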